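import Vale.Agent.Lib.P154Q.Npb2.Data

set_option linter.defProp false

/-!
Kernel checks of one certificate.
-/

namespace Vale.Agent.Lib.P154Q.Npb2

open Vale.Agent.Lib.P154M Vale.Agent.Lib.P154Q
open Vale.Agent.Lib.Common.Kron Vale.Agent.Lib.Common.Kron.PE

set_option maxRecDepth 100000 in
def hG0_0 : checkT D.eG0 (c 1) [56, 56, 1, 1] .leaf (root2.lowH 1) = true := by
  decide +kernel

set_option maxRecDepth 100000 in
def hG0_1 : checkT D.eG0 (c 1) [56, 56, 1, 1] .leaf ((root2.upH 1).lowH 1) = true := by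
  decide +kernel

set_option maxRecDepth 100000 in
def hG0_2 : checkT D.eG0 (c 1) [56, 56, 1, 1] .leaf ((((root2.upH 1).upH 1).lowH 0).lowH 0) = true := by
  decide +kernel

set_option maxRecDepth 100000 in
def hG0_3 : checkT D.eG0 (c 1) [56, 56, 1, 1] (.node 1 .leaf (.node 0 (.node 0 .leaf .leaf) .leaf)) ((((root2.upH 1).upH 1).lowH 0).upH 0) = true := by
  decide +kernel

set_option maxRecDepth 100000 in
def hG0_4 : checkT D.eG0 (c 1) [56, 56, 1, 1] (.node 0 .leaf (.node 0 .leaf (.node 1 .leaf .leaf))) (((root2.upH 1).upH 1).upH 0) = true := by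
  decide +kernel

set_option maxRecDepth 100000 in
def hG1_0 : checkT D.eG1 (c 1) [56, 56, 1, 1] .leaf (root2.lowH 1) = true := by
  decide +kernel

set_option maxRecDepth 100000 in
def hG1_1 : checkT D.eG1 (c 1) [56, 56, 1, 1] .leaf (((root2.upH 1).lowH 1).lowH 0) = true := by
  decide +kernel

set_option maxRecDepth 100000 in
def hG1_2 : checkT D.eG1 (c 1) [56, 56, 1, 1] .leaf ((((root2.upH 1).lowH 1).upH 0).lowH 0) = true := by
  decide +kernel

set_option maxRecDepth 100000 in
def hG1_3 : checkT D.eG1 (c 1) [56, 56, 1, 1] .leaf ((((((root2.upH 1).lowH 1).upH 0).upH 0).lowH 1).lowH 1) = true := by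
  decide +kernel

set_option maxRecDepth 100000 in
def hG1_4 : checkT D.eG1 (c 1) [56, 56, 1, 1] .leaf (((((((root2.upH 1).lowH 1).upH 0).upH 0).lowH 1).upH 1).lowH 0) = true := by
  decide +kernel

set_option maxRecDepth 100000 in
def hG1_5 : checkT D.eG1 (c 1) [56, 56, 1, 1] (.node 0 (.node 1 .leaf .leaf) (.node 1 .leaf .leaf)) (((((((root2.upH 1).lowH 1).upH 0).upH 0).lowH 1).upH 1).upH 0) = true := by
  decide +kernel

set_option maxRecDepth 100000 in
def hG1_6 : checkT D.eG1 (c 1) [56, 56, 1, 1] .leaf (((((root2.upH 1).lowH 1).upH 0).upH 0).upH 1) = true := by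
  decide +kernel

set_option maxRecDepth 100000 in
def hG1_7 : checkT D.eG1 (c 1) [56, 56, 1, 1] (.node 0 .leaf (.node 1 .leaf (.node 0 .leaf .leaf))) (((root2.upH 1).upH 1).lowH 0) = true := by
  decide +kernel

set_option maxRecDepth 100000 in
def hG1_8 : checkT D.eG1 (c 1) [56, 56, 1, 1] .leaf ((((root2.upH 1).upH 1).upH 0).lowH 0) = true := by
  decide +kernel

set_option maxRecDepth 100000 in
def hG1_9 : checkT D.eG1 (c 1) [56, 56, 1, 1] (.node 1 .leaf (.node 0 .leaf (.node 1 .leaf .leaf))) (((((root2.upH 1).upH 1).upH 0).upH 0).lowH 0) = true := by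
  decide +kernel

set_option maxRecDepth 100000 in
def hG1_10 : checkT D.eG1 (c 1) [56, 56, 1, 1] (.node 1 (.node 1 .leaf .leaf) .leaf) (((((root2.upH 1).upH 1).upH 0).upH 0).upH 0) = true := by
  decide +kernel

end Vale.Agent.Lib.P154Q.Npb2
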