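import Vale.Agent.Lib.P154Q.Npb2.Data

set_option linter.defProp false

/-!
Kernel checks of one certificate.
-/

namespace Vale.Agent.Lib.P154Q.Npb2

open Vale.Agent.Lib.P154M Vale.Agent.Lib.P154Q
open Vale.Agent.Lib.Common.Kron Vale.Agent.Lib.Common.Kron.PE

set_option maxRecDepth 100000 in
def hA1_16 : checkT D.eChA (c 1) [14, 13, 12, 8] .leaf (((((((D.rA1 mC).lowH 0).upH 0).upH 1).upH 1).upH 0).lowH 3) = true := by
  decide +kernel

set_option maxRecDepth 100000 in
def hA1_17 : checkT D.eChA (c 1) [14, 13, 12, 8] .leaf ((((((((D.rA1 mC).lowH 0).upH 0).upH 1).upH 1).upH 0).upH 3).lowH 0) = true := by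
  decide +kernel

set_option maxRecDepth 100000 in
def hA1_18 : checkT D.eChA (c 1) [14, 13, 12, 8] .leaf (((((((((D.rA1 mC).lowH 0).upH 0).upH 1).upH 1).upH 0).upH 3).upH 0).lowH 2) = true := by
  decide +kernel

set_option maxRecDepth 100000 in
def hA1_19 : checkT D.eChA (c 1) [14, 13, 12, 8] .leaf ((((((((((D.rA1 mC).lowH 0).upH 0).upH 1).upH 1).upH 0).upH 3).upH 0).upH 2).lowH 2) = true := by
  decide +kernel

set_option maxRecDepth 100000 in
def hA1_20 : checkT D.eChA (c 1) [14, 13, 12, 8] .leaf (((((((((((D.rA1 mC).lowH 0).upH 0).upH 1).upH 1).upH 0).upH 3).upH 0).upH 2).upH 2).lowH 3) = true := by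
  decide +kernel

end Vale.Agent.Lib.P154Q.Npb2
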