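import Vale.Agent.Lib.P154Q.Npb2.Data

set_option linter.defProp false

/-!
Kernel checks of one certificate.
-/

namespace Vale.Agent.Lib.P154Q.Npb2

open Vale.Agent.Lib.P154M Vale.Agent.Lib.P154Q
open Vale.Agent.Lib.Common.Kron Vale.Agent.Lib.Common.Kron.PE

set_option maxRecDepth 100000 in
def hA1_21 : checkT D.eChA (c 1) [14, 13, 12, 8] (.node 1 .leaf .leaf) (((((((((((D.rA1 mC).lowH 0).upH 0).upH 1).upH 1).upH 0).upH 3).upH 0).upH 2).upH 2).upH 3) = true := by
  decide +kernel

set_option maxRecDepth 100000 in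
def hA1_22 : checkT D.eChA (c 1) [14, 13, 12, 8] .leaf ((((D.rA1 mC).upH 0).lowH 1).lowH 3) = true := by
  decide +kernel

set_option maxRecDepth 100000 in
def hA1_23 : checkT D.eChA (c 1) [14, 13, 12, 8] .leaf (((((D.rA1 mC).upH 0).lowH 1).upH 3).lowH 1) = true := by
  decide +kernel

set_option maxRecDepth 100000 in
def hA1_24 : checkT D.eChA (c 1) [14, 13, 12, 8] .leaf ((((((D.rA1 mC).upH 0).lowH 1).upH 3).upH 1).lowH 1) = true := by
  decide +kernel

set_option maxRecDepth 100000 in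
def hA1_25 : checkT D.eChA (c 1) [14, 13, 12, 8] .leaf (((((((D.rA1 mC).upH 0).lowH 1).upH 3).upH 1).upH 1).lowH 2) = true := by
  decide +kernel

end Vale.Agent.Lib.P154Q.Npb2
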