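import Vale.Agent.Lib.P154Q.Npb2.Data

set_option linter.defProp false

/-!
Kernel checks of one certificate.
-/

namespace Vale.Agent.Lib.P154Q.Npb2

open Vale.Agent.Lib.P154M Vale.Agent.Lib.P154Q
open Vale.Agent.Lib.Common.Kron Vale.Agent.Lib.Common.Kron.PE

set_option maxRecDepth 100000 in
def hA2_3 : checkT D.eChA (c 1) [14, 13, 12, 8] (.node 1 .leaf .leaf) ((((D.rA2 mC).upH 1).upH 0).upH 0) = true := by
  decide +kernel

set_option maxRecDepth 100000 in
def hB1_0 : checkT D.eChB1 (c 1) [24, 13, 12, 8] .leaf (NetD.rB1 mC) = true := by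
  decide +kernel

end Vale.Agent.Lib.P154Q.Npb2
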