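import Vale.Agent.Lib.P154Q.Child.Data

/-!
The data of one certificate.
-/

namespace Vale.Agent.Lib.P154Q.Npb2

open Vale.Agent.Lib.P154M Vale.Agent.Lib.P154Q
open Vale.Agent.Lib.Common.Kron Vale.Agent.Lib.Common.Kron.PE

/-- Coefficients. -/
def G0L : L2 := [(-1658884, 4, 1), (108442916, 1, 3), (840997, 5, 0), (-118957900, 2, 2), (25589675, 3, 1), (229033077, 0, 3), (-2244517, 4, 0), (35458610, 1, 2), (-28049368, 2, 1), (3699385, 3, 0), (-25681841, 0, 2), (-1423962, 1, 1), (13113171, 2, 0), (219000000, 1, 0)]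

/-- Coefficients. -/
def G1L : L2 := [(-6753850, 4, 1), (-413651844, 1, 3), (1675761, 5, 0), (197803539, 2, 2), (29192534, 3, 1), (599600050, 0, 3), (-9267737, 4, 0), (-446511914, 1, 2), (-27948900, 2, 1), (10859247, 3, 0), (138032222, 0, 2), (1899200, 1, 1), (9545554, 2, 0), (13493952, 0, 1), (200424000, 1, 0)]

/-- The certificate. -/
def D : NetD where
  ML := [⟨4, 1, -1658884, -6753850⟩,
    ⟨1, 3, 108442916, -413651844⟩,
    ⟨5, 0, 840997, 1675761⟩,
    ⟨2, 2, -118957900, 197803539⟩,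
    ⟨3, 1, 25589675, 29192534⟩,
    ⟨0, 3, 229033077, 599600050⟩,
    ⟨4, 0, -2244517, -9267737⟩,
    ⟨1, 2, 35458610, -446511914⟩,
    ⟨2, 1, -28049368, -27948900⟩,
    ⟨3, 0, 3699385, 10859247⟩,
    ⟨0, 2, -25681841, 138032222⟩,
    ⟨1, 1, -1423962, 1899200⟩,
    ⟨2, 0, 13113171, 9545554⟩,
    ⟨0, 1, 0, 13493952⟩,
    ⟨1, 0, 219000000, 200424000⟩]
  G0 := G0L
  G1 := G1L
  UB := Child.UBL
  UD := Child.UDL
  LA := Child.LAL
  PB := [114032640000, -41645506560, -7213301760, 9521899520, -3705607360, 1419855360]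
  PD := [105381888000, -180674887680, 105867509760, -35995484160, 8535767040, -1339960320]
  ZZ := [157286400000, -160557957120, 126851481600]
  KK := [0, 0, 8622981120, -54021672960, -20388391360, 2543514080, -392852665, -66669816]
  gd := Child.gdC
  DW := 157286400000
  T1 := 15728640000000000
  wn := 9
  wd := 125
  bn0 := 453125
  dn0 := 418750
  bn1 := 469757
  dn1 := 389671
  den := 625000
  Na := 11
  Nc := Child.NcC

/-- The interval of the parameter. -/
def mC : Iv := ⟨4911, 4955, 10000⟩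

end Vale.Agent.Lib.P154Q.Npb2
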