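import Vale.Agent.Lib.P154Q.Npb2.Main
import Vale.Agent.Lib.P154Q.R3pb2
import Vale.Agent.Lib.P154Q.Local

/-!
The limit theorem from one certificate.
-/

namespace Vale.Agent.Lib.P154Q.Npb2

open Vale.Agent.Lib.P154M Vale.Agent.Lib.P154Q
open Vale.Agent.Lib.Common.Kron Vale.Agent.Lib.Common.Kron.PE

open Filter Topology
open Vale.Agent.Lib.P154 Vale.Agent.Lib.P154P Vale.Agent.Lib.P154.Mellin

theorem e1 (w : ℝ) : D.pB w = 29 / 40 + 231 / 625 * w := by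
  simp only [D, NetD.pB]
  norm_num
  ring

theorem e2 (w : ℝ) : D.pD w = 67 / 100 + -3231 / 5000 * w := by
  simp only [D, NetD.pD]
  norm_num
  ring

theorem e3 (w : ℝ) : D.ze w = 1 - 638 / 625 * w - -1613 / 2000 * w ^ 2 - 0 * w ^ 3 := by
  simp only [D, NetD.ze, evW]
  norm_num
  ring

theorem th_pos : 0 < D.th := by
  norm_num [NetD.th, D, Child.gdC]

theorem th_le : D.th * (4 + (9 / 125 : ℝ) ^ 2) ≤ 1/2000 := by
  norm_num [NetD.th, D, Child.gdC]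

/-- The limit theorem on the range of this certificate. -/
theorem lim {μ : ℝ} (h0 : (4911 / 10000 : ℝ) ≤ μ) (h1 : μ ≤ (991 / 2000 : ℝ))
    (hN : ∃ N, 1 - Ex (poissonLaw (1 / μ ^ 2)) (-μ) N (fhat cA) ≤ 1 - Real.exp (-(9 / 125 : ℝ))) :
    Tendsto (Xbar (poissonLaw (1 / μ ^ 2)) (-μ)) atTop (𝓝 0) :=
  poi_limit (by linarith) (by linarith) th_pos (by norm_num) D.pB D.pD D.ze
    (fun _ h2 h3 => ⟨hpB h2 h3, hpD h2 h3⟩)
    (fun _ h2 h3 _ hx hb => point h0 h1 h2 h3 hx hb)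
    (fun w h2 h3 _ hx hs => by
      rw [e1, e2, e3]
      exact R3pb2.r3 h2 h3 h0 h1 hx hs)
    th_le hN


end Vale.Agent.Lib.P154Q.Npb2
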